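import Vale.Agent.P105.Defs
import Vale.Agent.P105.Salem

open Vale.Agent.P105

theorem Vale.Agent.Results.P105.Salem.result :
    (∃ lam : ℝ, 1 / 2 < lam ∧ lam < 1 ∧ ¬ IsPisot lam⁻¹ ∧ IsSingularProb (nu lam)) ∧
    (∃ b : ℝ, 1 < b ∧ b ^ 4 - b ^ 3 - b ^ 2 - b + 1 = 0) ∧
    (∃ b : ℝ, 1 < b ∧ b ^ 4 - 2 * b ^ 3 + b ^ 2 - 2 * b + 1 = 0) ∧
    ∀ b : ℝ, 1 < b →
      (b ^ 4 - b ^ 3 - b ^ 2 - b + 1 = 0 ∨ b ^ 4 - 2 * b ^ 3 + b ^ 2 - 2 * b + 1 = 0) →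
      1 / 2 < b⁻¹ ∧ b⁻¹ < 1 ∧ ¬ IsPisot b ∧ IsSingularProb (nu b⁻¹) := by
  have key : ∀ b : ℝ, 1 < b →
      (b ^ 4 - b ^ 3 - b ^ 2 - b + 1 = 0 ∨ b ^ 4 - 2 * b ^ 3 + b ^ 2 - 2 * b + 1 = 0) →
      1 / 2 < b⁻¹ ∧ b⁻¹ < 1 ∧ ¬ IsPisot b ∧ IsSingularProb (nu b⁻¹) := by
    intro b hb h
    have h3 : b < 2 ∧ ¬ IsPisot b ∧ IsSingularProb (nu b⁻¹) :=
      h.elim (case_one hb) (case_two hb)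
    refine ⟨?_, inv_lt_one_of_one_lt₀ hb, h3.2⟩
    rw [one_div]
    exact inv_strictAnti₀ (by linarith) h3.1
  refine ⟨?_, exists_root_one, exists_root_two, key⟩
  obtain ⟨b, hb, h⟩ := exists_root_one
  obtain ⟨h1, h2, h3, h4⟩ := key b hb (Or.inl h)
  exact ⟨b⁻¹, h1, h2, by rwa [inv_inv], h4⟩
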